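import Vale.Agent.Lib.P328.TokenDP

open Finset Vale.Agent.Lib.P328

/-- Approximate counting of contingency tables in the sparse regime. Let `R`, `C` be margins with
common total `N > 0`, let `a`, `b` bound the row and column sums, with `16 * a * b ≤ N`. Then the
explicit number `approxCount D R C`, given by a dynamic program over token count vectors
(at most `(N+1)^D` of them), satisfies
`(1 - 2^(D+1) * N * (a*b/N)^D) * #tables ≤ approxCount D R C ≤ #tables`. -/
theorem Vale.Agent.Results.P328.TokenDP.result {m n : ℕ} (D : ℕ) (R : Fin m → ℕ) (C : Fin n → ℕ)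
    (hsum : ∑ i, R i = ∑ j, C j) (a b : ℕ) (ha : ∀ i, R i ≤ a) (hb : ∀ j, C j ≤ b)
    (hN : 0 < ∑ i, R i) (h16 : 16 * (a * b) ≤ ∑ i, R i) :
    (1 - 2 ^ (D + 1) * ((∑ i, R i : ℕ) : ℚ) * (((a : ℚ) * b) / ((∑ i, R i : ℕ) : ℚ)) ^ D)
        * ((tables R C).card : ℚ) ≤ approxCount D R C ∧
      approxCount D R C ≤ ((tables R C).card : ℚ) := by
  classical
  have hcw : ∀ X : Fin m → Fin n → ℕ, 0 ≤ ∏ i, ∏ j, cellWeight D (X i j) := fun X =>
    Finset.prod_nonneg fun i _ => Finset.prod_nonneg fun j _ => cellWeight_nonneg _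
  rw [approxCount_eq]
  constructor
  · -- lower bound through the tables with small entries
    have h1 : ((goodTables R C D).card : ℚ) ≤ ∑ X ∈ tables R C, ∏ i, ∏ j, cellWeight D (X i j) := by
      calc ((goodTables R C D).card : ℚ)
          = ∑ X ∈ goodTables R C D, ∏ i, ∏ j, cellWeight D (X i j) := by
            rw [Finset.card_eq_sum_ones]
            push_cast
            refine Finset.sum_congr rfl fun X hX => ?_
            simp only [goodTables, mem_filter] at hX
            symm
            refine Finset.prod_eq_one fun i _ => Finset.prod_eq_one fun j _ => ?_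
            exact cellWeight_eq_one (hX.2 i j)
        _ ≤ _ := Finset.sum_le_sum_of_subset_of_nonneg (Finset.filter_subset _ _)
            fun X _ _ => hcw X
    refine le_trans ?_ h1
    have hb2 := good_bound ha hb hsum h16 D
    set N := ∑ i, R i with hNdef
    have hNq : (0 : ℚ) < (N : ℚ) := by exact_mod_cast hN
    have hb3 : (N : ℚ) ^ (D + 1) * ((tables R C).card : ℚ)
        ≤ (N : ℚ) ^ (D + 1) * ((goodTables R C D).card : ℚ)
          + 2 ^ (D + 1) * ((a : ℚ) * b) ^ D * (N : ℚ) ^ 2 * ((tables R C).card : ℚ) := by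
      exact_mod_cast hb2
    have hE : 2 ^ (D + 1) * (N : ℚ) * (((a : ℚ) * b) / (N : ℚ)) ^ D * (N : ℚ) ^ (D + 1)
        = 2 ^ (D + 1) * ((a : ℚ) * b) ^ D * (N : ℚ) ^ 2 := by
      rw [div_pow]
      field_simp
      ring
    have hpos : (0 : ℚ) < (N : ℚ) ^ (D + 1) := pow_pos hNq _
    have key : (N : ℚ) ^ (D + 1) *
        ((1 - 2 ^ (D + 1) * (N : ℚ) * (((a : ℚ) * b) / (N : ℚ)) ^ D) * ((tables R C).card : ℚ))
        ≤ (N : ℚ) ^ (D + 1) * ((goodTables R C D).card : ℚ) := by
      have : (N : ℚ) ^ (D + 1) *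
          ((1 - 2 ^ (D + 1) * (N : ℚ) * (((a : ℚ) * b) / (N : ℚ)) ^ D) * ((tables R C).card : ℚ))
          = (N : ℚ) ^ (D + 1) * ((tables R C).card : ℚ)
            - (2 ^ (D + 1) * (N : ℚ) * (((a : ℚ) * b) / (N : ℚ)) ^ D * (N : ℚ) ^ (D + 1))
              * ((tables R C).card : ℚ) := by ring
      rw [this, hE]
      linarith
    exact le_of_mul_le_mul_left key hpos
  · -- upper bound
    calc ∑ X ∈ tables R C, ∏ i, ∏ j, cellWeight D (X i j)
        ≤ ∑ _X ∈ tables R C, (1 : ℚ) := by
          refine Finset.sum_le_sum fun X _ => ?_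
          refine Finset.prod_le_one (fun i _ => Finset.prod_nonneg fun j _ => cellWeight_nonneg _)
            fun i _ => Finset.prod_le_one (fun j _ => cellWeight_nonneg _)
              fun j _ => cellWeight_le_one _
      _ = _ := by simp
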